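import Mathlib
import Vale.Agent.P061.Defs
import Vale.Agent.P061.Proof

open Vale.Agent.P061

namespace Vale.Agent.Results.P061.Lower

/-- No thinness below `4k/(k+1)^2` can be guaranteed for all `k`-edge-connected multigraphs, so a
constant `C` as in the strong thin tree conjecture must satisfy `C ≥ 4`. -/
theorem result :
    (∀ (k : ℕ) (α : ℝ), 1 ≤ k → Guaranteed k α → 4 * (k : ℝ) / ((k : ℝ) + 1) ^ 2 ≤ α) ∧
    (∀ C : ℝ, (∀ k : ℕ, 1 ≤ k → Guaranteed k (C / k)) → 4 ≤ C) :=
  ⟨fun k α hk h => main k hk α h, fun C h => final C h⟩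

end Vale.Agent.Results.P061.Lower
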